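import Vale.Agent.P030.H476.V1.D

namespace Vale.Agent.P030.H476.VE.V1

open Vale.Agent.P030.H476.VE

theorem p0 : Nat.ble 80808150608436121829871736890023
    (segP S.O 12 (A.drop 0)) = true := by decide +kernel

theorem q0 : Nat.ble (segN S.O 12 (A.drop 0))
    96982866648706644837174978068884 = true := by decide +kernel

theorem p1 : Nat.ble 6547469242533528680829987332976
    (segP S.O 11 (A.drop 12)) = true := by decide +kernel

theorem q1 : Nat.ble (segN S.O 11 (A.drop 12))
    8398444975042581587009457144190 = true := by decide +kernel

theorem p2 : Nat.ble 29892870799256171509978812708394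
    (segP S.O 12 (A.drop 23)) = true := by decide +kernel

theorem q2 : Nat.ble (segN S.O 12 (A.drop 23))
    62391148052186465711893798551080 = true := by decide +kernel

end Vale.Agent.P030.H476.VE.V1
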