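import Vale.Agent.P030.H476.V1.D

namespace Vale.Agent.P030.H476.VE.V1

open Vale.Agent.P030.H476.VE

theorem p3 : Nat.ble 44529987782069266530782461227647
    (segP S.O 12 (A.drop 35)) = true := by decide +kernel

theorem q3 : Nat.ble (segN S.O 12 (A.drop 35))
    21077288653602973462746673227598 = true := by decide +kernel

theorem p4 : Nat.ble 12935166186171772283108381952378
    (segP S.O 12 (A.drop 47)) = true := by decide +kernel

theorem q4 : Nat.ble (segN S.O 12 (A.drop 47))
    8217694288674478675595766109396 = true := by decide +kernel

theorem p5 : Nat.ble 8336346624105467731561330948613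
    (segP S.O 13 (A.drop 59)) = true := by decide +kernel

theorem q5 : Nat.ble (segN S.O 13 (A.drop 59))
    13177661231333549981597712625734 = true := by decide +kernel

end Vale.Agent.P030.H476.VE.V1
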