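import Vale.Agent.P030.H476.V1.D

namespace Vale.Agent.P030.H476.VE.V1

open Vale.Agent.P030.H476.VE

theorem p6 : Nat.ble 1726353620954373498953783813460
    (segP S.O 9 (A.drop 72)) = true := by decide +kernel

theorem q6 : Nat.ble (segN S.O 9 (A.drop 72))
    570449407312207536648816152252 = true := by decide +kernel

theorem p7 : Nat.ble 1795736707592233533738856208870
    (segP S.O 9 (A.drop 81)) = true := by decide +kernel

theorem q7 : Nat.ble (segN S.O 9 (A.drop 81))
    596890570207923827180244118164 = true := by decide +kernel

theorem p8 : Nat.ble 1666939814383143049636007330508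
    (segP S.O 9 (A.drop 90)) = true := by decide +kernel

theorem q8 : Nat.ble (segN S.O 9 (A.drop 90))
    595890868061567256545945343284 = true := by decide +kernel

end Vale.Agent.P030.H476.VE.V1
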