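import Vale.Agent.P030.H476.V1.D

namespace Vale.Agent.P030.H476.VE.V1

open Vale.Agent.P030.H476.VE

theorem p9 : Nat.ble 1703008309978881208031347607248
    (segP S.O 10 (A.drop 99)) = true := by decide +kernel

theorem q9 : Nat.ble (segN S.O 10 (A.drop 99))
    662458628067068785551219975248 = true := by decide +kernel

theorem p10 : Nat.ble 1390855471993448516651688296440
    (segP S.O 9 (A.drop 109)) = true := by decide +kernel

theorem q10 : Nat.ble (segN S.O 9 (A.drop 109))
    593922963167304387718188272168 = true := by decide +kernel

theorem p11 : Nat.ble 1386495964970509080592896317922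
    (segP S.O 10 (A.drop 118)) = true := by decide +kernel

theorem q11 : Nat.ble (segN S.O 10 (A.drop 118))
    656549191341159771275566403356 = true := by decide +kernel

end Vale.Agent.P030.H476.VE.V1
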