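import Vale.Agent.P030.H476.V1.D

namespace Vale.Agent.P030.H476.VE.V1

open Vale.Agent.P030.H476.VE

theorem p12 : Nat.ble 1327521395501438564801814716272
    (segP S.O 11 (A.drop 128)) = true := by decide +kernel

theorem q12 : Nat.ble (segN S.O 11 (A.drop 128))
    714744571214554953971073489844 = true := by decide +kernel

theorem p13 : Nat.ble 1105806386322491325609387322920
    (segP S.O 11 (A.drop 139)) = true := by decide +kernel

theorem q13 : Nat.ble (segN S.O 11 (A.drop 139))
    677072442051999902956498833324 = true := by decide +kernel

theorem p14 : Nat.ble 961577868902594345605417002126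
    (segP S.O 12 (A.drop 150)) = true := by decide +kernel

theorem q14 : Nat.ble (segN S.O 12 (A.drop 150))
    733710398558079949640326691016 = true := by decide +kernel

end Vale.Agent.P030.H476.VE.V1
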