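import Vale.Agent.P030.H476.V1.D

namespace Vale.Agent.P030.H476.VE.V1

open Vale.Agent.P030.H476.VE

theorem p15 : Nat.ble 781404520071398218421518749154
    (segP S.O 12 (A.drop 162)) = true := by decide +kernel

theorem q15 : Nat.ble (segN S.O 12 (A.drop 162))
    757023158734093399648395790976 = true := by decide +kernel

theorem p16 : Nat.ble 865224384813788359682566519416
    (segP S.O 13 (A.drop 174)) = true := by decide +kernel

theorem q16 : Nat.ble (segN S.O 13 (A.drop 174))
    951640810542549226338587551488 = true := by decide +kernel

theorem p17 : Nat.ble 1389797278503037195351724455410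
    (segP S.O 14 (A.drop 187)) = true := by decide +kernel

theorem q17 : Nat.ble (segN S.O 14 (A.drop 187))
    1800830794631491918076079553000 = true := by decide +kernel

end Vale.Agent.P030.H476.VE.V1
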