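import Vale.Agent.P030.H476.V1.D

namespace Vale.Agent.P030.H476.VE.V1

open Vale.Agent.P030.H476.VE

theorem p18 : Nat.ble 1241060759831603721728735344920
    (segP S.O 15 (A.drop 201)) = true := by decide +kernel

theorem q18 : Nat.ble (segN S.O 15 (A.drop 201))
    2052709022592909994671864191292 = true := by decide +kernel

theorem p19 : Nat.ble 1004974553382546250120395295920
    (segP S.O 17 (A.drop 216)) = true := by decide +kernel

theorem q19 : Nat.ble (segN S.O 17 (A.drop 216))
    2344130499848707767679563546896 = true := by decide +kernel

theorem p20 : Nat.ble 653701143898164401548473827960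
    (segP S.O 19 (A.drop 233)) = true := by decide +kernel

theorem q20 : Nat.ble (segN S.O 19 (A.drop 233))
    2718304419772025034833072290988 = true := by decide +kernel

end Vale.Agent.P030.H476.VE.V1
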