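import Vale.Agent.P030.H476.V1.D

namespace Vale.Agent.P030.H476.VE.V1

open Vale.Agent.P030.H476.VE

theorem p21 : Nat.ble 1684828470270938052578194960900
    (segP S.O 23 (A.drop 252)) = true := by decide +kernel

theorem q21 : Nat.ble (segN S.O 23 (A.drop 252))
    2277789948601714639857298580572 = true := by decide +kernel

theorem p22 : Nat.ble 4052068990015877379192965106462
    (segP S.O 29 (A.drop 275)) = true := by decide +kernel

theorem q22 : Nat.ble (segN S.O 29 (A.drop 275))
    211765364424106539514601088952 = true := by decide +kernel

theorem p23 : Nat.ble 30461039235039224090578393472784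
    (segP S.O 71 (A.drop 304)) = true := by decide +kernel

theorem q23 : Nat.ble (segN S.O 71 (A.drop 304))
    4310271565578902419571324084892 = true := by decide +kernel

end Vale.Agent.P030.H476.VE.V1
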