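import Vale.Agent.P030.H462.Link
import Vale.Agent.P030.H476.V1.All
import Vale.Agent.P030.H284.V1Om

/-!
# The energy of the literal table
-/

namespace Vale.Agent.P030.H476.VE.V1

open Vale.Agent.P030.H476.VE Vale.Agent.P030.H462

theorem hm : LK.mtch S A Vale.Agent.P030.V1.tab.toTab.ents = true := by decide +kernel

theorem hL : 0 < Vale.Agent.P030.V1.tab.toTab.L := by decide +kernel

theorem hS : S.L = 27 * Vale.Agent.P030.V1.tab.toTab.L := by decide +kernel

theorem hs : PT.symOk Vale.Agent.P030.V1.tab.toTab = true := by decide +kernel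

theorem he : LK.enOk S Vale.Agent.P030.V1.tab.toTab 27 P Q H284.V1.e0 = true := by
  decide +kernel

/-- the weights -/
theorem W_val (b : Fin 8) (z : ℂ) :
    H905.WtP (fun _ => 27) (LK.muV S A ok) (LK.gaV S Vale.Agent.P030.V1.tab.toTab 27) b z =
      Vale.Agent.P030.V1.tab.toTab.W b z :=
  LK.W_val ok hm hL (by norm_num) hS b z

/-- reality -/
theorem W_conj (b : Fin 8) (z : ℂ) :
    Vale.Agent.P030.V1.tab.toTab.W b ((starRingEnd ℂ) z) = Vale.Agent.P030.V1.tab.toTab.W b z :=
  PT.W_conj _ hs b z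

/-- **the energy of the table** -/
theorem E0 : (H284.V1.e0 : ℝ) / 2 ^ 40 ≤
    H905.E0P (fun _ => 27) (LK.muV S A ok) (LK.gaV S Vale.Agent.P030.V1.tab.toTab 27) :=
  LK.E0_ge ok hL (by norm_num) hS seg len he

/-- total charges -/
theorem mass (b : Fin 8) :
    Vale.Agent.P030.V1.tab.toTab.mass b = 27 * Vale.Agent.P030.V1.tab.toTab.L := by
  have := LK.mass_val (D0 := 27) ok hm hS b
  exact_mod_cast this

end Vale.Agent.P030.H476.VE.V1
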